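import Mathlib
import Vale.Agent.Lib.P184.Statement

namespace Vale.Agent.Results.P184.A_centralizer

/-- Let `e` be an idempotent `q × q` matrix over `ℓ¹(G)`, given by its absolutely summable
coefficient functions, with convolution idempotence `hid`. Let `L` be a length function on `G`,
and let `ψ` restrict to an additive map on the centralizer of `g₀`, bounded there by `L`, with
`ψ g₀ ≠ 0`. Then the Hattori-Stallings coefficient of `e` at the conjugacy class of `g₀` vanishes. -/
theorem result {G : Type*} [Group G] {q : ℕ}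
    (e : Fin q → Fin q → G → ℂ)
    (he : ∀ i j, Summable fun g => ‖e i j g‖)
    (hid : ∀ i j g, ∑ k, ∑' h, e i k h * e k j (h⁻¹ * g) = e i j g)
    (L : G → ℝ) (hL1 : L 1 = 0) (hLinv : ∀ x, L x⁻¹ = L x)
    (hLmul : ∀ x y, L (x * y) ≤ L x + L y)
    (g₀ : G) (ψ : G → ℝ)
    (hψmul : ∀ a b, Commute a g₀ → Commute b g₀ → ψ (a * b) = ψ a + ψ b)
    (hψL : ∀ a, Commute a g₀ → |ψ a| ≤ L a)
    (hψg : ψ g₀ ≠ 0) :
    ∑' g : {g // IsConj g₀ g}, ∑ i, e i i g = 0 :=
  Vale.Agent.Lib.P184.class_trace_vanishes e he hid L hL1 hLinv hLmul g₀ ψ hψmul hψL hψg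

end Vale.Agent.Results.P184.A_centralizer
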